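import Vale.Agent.P065.H806.CaseII
import Vale.Agent.P065.H279.HRowsP
import Vale.Agent.P065.H344.HThinP
import Vale.Agent.P065.H268.CaseIMain
import Vale.Agent.P065.H353.HBadP
import Vale.Agent.P065.H725.Split
import Vale.Agent.P065.H859.Top
import Vale.Agent.P065.H547.FinalForm

/-!
P065: the number of halving lines of `n` points is at most `n ^ (1 + o(1))`, the number of `k`-sets
is at most `n * k ^ o(1)`, and the lower bounds.
-/

namespace Vale.Agent.Results.P065.AlmostLinear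

open Vale.Agent.P065

/-- (a) `h(n) ≤ C n ^ (1 + ε)` for every `ε > 0`,
(b) `e_k(n) ≤ C n k ^ ε` for every `ε > 0` and all `1 ≤ k ≤ n - 1`,
(c) `h(n) ≥ n ^ (1 + c / (log log n) ^ 4)` for all large even `n`,
(d) `e_k(n) ≥ n k ^ (c / (log log k) ^ 4)` for all large `k` and all `n ≥ 2 k`. -/
theorem result :
    (∀ ε : ℝ, 0 < ε → ∃ C : ℝ, ∀ P : Finset (ℝ × ℝ), GenPos P →
      (halvingNumber P : ℝ) ≤ C * (P.card : ℝ) ^ (1 + ε)) ∧
    (∀ ε : ℝ, 0 < ε → ∃ C : ℝ, ∀ (P : Finset (ℝ × ℝ)) (k : ℕ), GenPos P → 1 ≤ k →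
      k + 1 ≤ P.card → (kSetNumber P k : ℝ) ≤ C * P.card * (k : ℝ) ^ ε) ∧
    (∃ (c : ℝ) (N : ℕ), 0 < c ∧ ∀ n : ℕ, N ≤ n → Even n →
      ∃ P : Finset (ℝ × ℝ), P.card = n ∧ GenPos P ∧
        (n : ℝ) ^ (1 + c / Real.log (Real.log n) ^ 4) ≤ halvingNumber P) ∧
    (∃ (c : ℝ) (K : ℕ), 0 < c ∧ ∀ k n : ℕ, K ≤ k → 2 * k ≤ n →
      ∃ P : Finset (ℝ × ℝ), P.card = n ∧ GenPos P ∧
        (n : ℝ) * (k : ℝ) ^ (c / Real.log (Real.log k) ^ 4) ≤ kSetNumber P k) :=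
  H547.final_form (H859.beta_of H268.caseI
    (H806.caseII_of H353.hbadP H806.hthinP H279.hrowsP) H725.hsplit)

end Vale.Agent.Results.P065.AlmostLinear
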